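import Vale.Agent.P124.H413.Main
import Vale.Agent.P124.H413.T4

/-!
P124, Q1 (Aharoni-Lindenstrauss 1978): there are separable real Banach spaces that are
Lipschitz isomorphic but not linearly isomorphic.

In the proof `Y = C₀(ℕ × ℕ, C([0,1]^ℕ))` and `X = E × Y`, where `E` is a separable Banach space
that is not isomorphic to a complemented subspace of any `C(K)`.
-/

open TopologicalSpace

/-- There are separable real Banach spaces `X`, `Y` and a bijection `f : X → Y` with
`c ‖x - x'‖ ≤ ‖f x - f x'‖ ≤ C ‖x - x'‖` (`0 < c ≤ C`), while there is no bounded linear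
bijection from `X` onto `Y`. -/
theorem Vale.Agent.Results.P124.CounterexampleSeparable.result :
    ∃ (X Y : Type) (_ : NormedAddCommGroup X) (_ : NormedSpace ℝ X) (_ : CompleteSpace X)
      (_ : SeparableSpace X) (_ : NormedAddCommGroup Y) (_ : NormedSpace ℝ Y)
      (_ : CompleteSpace Y) (_ : SeparableSpace Y),
      (∃ (f : X ≃ Y) (c C : ℝ), 0 < c ∧ c ≤ C ∧ ∀ x x' : X,
        c * ‖x - x'‖ ≤ ‖f x - f x'‖ ∧ ‖f x - f x'‖ ≤ C * ‖x - x'‖) ∧
      ¬ ∃ T : X →L[ℝ] Y, Function.Bijective T :=
  P124H186.H413.main P124H186.H413.T4_geometric
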