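import Vale.Agent.P124.H440.Factor
import Vale.Agent.P124.H440.Wauc
import Vale.Agent.P124.H440.KHfin

open scoped NNReal ENNReal
open Metric TopologicalSpace Vale.Agent.P124.R2 Vale.Agent.P124.H440

universe u v

namespace Vale.Agent.P124.LEmbeddedRigidity

/-- `X` and `Y` are linearly isomorphic. -/
def LinIso (X : Type u) (Y : Type v) [NormedAddCommGroup X] [NormedSpace ℝ X]
    [NormedAddCommGroup Y] [NormedSpace ℝ Y] : Prop :=
  Nonempty (X ≃L[ℝ] Y)

/-- `Y` is linearly isomorphic to a complemented subspace of `X`: the identity of `Y` factors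
through `X` by bounded linear maps. -/
def Complemented (Y : Type u) (X : Type v) [NormedAddCommGroup Y] [NormedSpace ℝ Y]
    [NormedAddCommGroup X] [NormedSpace ℝ X] : Prop :=
  ∃ (S : Y →L[ℝ] X) (Q : X →L[ℝ] Y), ∀ y, Q (S y) = y

/-- The identity of `Y` factors through `X` by Lipschitz maps `g : Y → X` and `f : X → Y`, and on
some nonempty open set `V` of `Y` and some open set `O` of `X` containing `g V` the product of the
Lipschitz constants of `g` on `V` and of `f` on `O` is less than `θ`. -/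
def LipschitzFactor (Y : Type u) (X : Type v) [NormedAddCommGroup Y] [NormedAddCommGroup X]
    (θ : ℝ) : Prop :=
  ∃ (g : Y → X) (f : X → Y) (K' L' K L : ℝ≥0) (V : Set Y) (O : Set X),
    LipschitzWith K' g ∧ LipschitzWith L' f ∧ (∀ y, f (g y) = y) ∧
    IsOpen V ∧ V.Nonempty ∧ IsOpen O ∧ Set.MapsTo g V O ∧
    LipschitzOnWith K g V ∧ LipschitzOnWith L f O ∧ ((K * L : ℝ≥0) : ℝ) < θ

/-- There is a Lipschitz isomorphism of `X` onto `Y` whose distortion on some nonempty open set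
is less than `θ`. -/
def LipschitzIsoBelow (X : Type u) (Y : Type v) [NormedAddCommGroup X] [NormedAddCommGroup Y]
    (θ : ℝ) : Prop :=
  ∃ (f : X ≃ Y) (K' L' K L : ℝ≥0) (O : Set X),
    LipschitzWith L' f ∧ LipschitzWith K' f.symm ∧
    IsOpen O ∧ O.Nonempty ∧ LipschitzOnWith L f O ∧ LipschitzOnWith K f.symm (f '' O) ∧
    ((K * L : ℝ≥0) : ℝ) < θ

/-- For the Banach space `X` and all Banach spaces `Y`: Lipschitz factorization of the identity of
`Y` through `X` with constant below `θ` somewhere implies linear factorization; a Lipschitz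
isomorphism `X → Y` with distortion below `θ` on some nonempty open set implies that each of `X`
and `Y` is complemented in the other, and that `Y` is linearly isomorphic to `X` in case `X` is
linearly isomorphic to its infinite `l1`-sum. -/
def Rigid (θ : ℝ) (X : Type u) [NormedAddCommGroup X] [NormedSpace ℝ X] : Prop :=
  ∀ (Y : Type v) [NormedAddCommGroup Y] [NormedSpace ℝ Y] [CompleteSpace Y],
    (LipschitzFactor Y X θ → Complemented Y X) ∧
    (LipschitzIsoBelow X Y θ → Complemented Y X ∧ Complemented X Y ∧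
      (LinIso X (lp (fun _ : ℕ => X) 1) → LinIso X Y))

/-- Every Banach space `Y` for which there is a Lipschitz isomorphism `X → Y` with distortion
below `θ` on some nonempty open set is linearly isomorphic to `X`. -/
def Determined (θ : ℝ) (X : Type u) [NormedAddCommGroup X] [NormedSpace ℝ X] : Prop :=
  ∀ (Y : Type v) [NormedAddCommGroup Y] [NormedSpace ℝ Y] [CompleteSpace Y],
    LipschitzIsoBelow X Y θ → LinIso X Y

/-- Every closed subspace `M` of `X` for which there is a Lipschitz retraction `X → M` that has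
Lipschitz constant below `θ` on some open set meeting `M` is complemented in `X`. -/
def RetractRigid (θ : ℝ) (X : Type u) [NormedAddCommGroup X] [NormedSpace ℝ X] : Prop :=
  ∀ (M : Submodule ℝ X), IsClosed (M : Set X) →
    (∃ (r : X → X) (L' L : ℝ≥0) (O : Set X), LipschitzWith L' r ∧ (∀ x, r x ∈ M) ∧
      (∀ x ∈ M, r x = x) ∧ IsOpen O ∧ (O ∩ M).Nonempty ∧ LipschitzOnWith L r O ∧ (L : ℝ) < θ) →
    ∃ P : X →L[ℝ] M, ∀ y : M, P y = y

/-- Part (1), (2): the theorem for separable spaces `X` with a projection of the bidual onto `X`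
that satisfies `Split κ`. -/
def PartSplit : Prop :=
  ∀ (X : Type u) [NormedAddCommGroup X] [NormedSpace ℝ X] [CompleteSpace X] [SeparableSpace X]
    (κ θ : ℝ), 0 ≤ κ → θ * κ ≤ 1 → Split κ X →
    RetractRigid θ X ∧ (CurveDiff X → Rigid.{u, v} θ X)

/-- Part (3): separable dual spaces. -/
def PartDual : Prop :=
  ∀ (Z : Type u) [NormedAddCommGroup Z] [NormedSpace ℝ Z] [SeparableSpace (StrongDual ℝ Z)],
    CurveDiff (StrongDual ℝ Z) ∧
    (∀ δ : ℝ, 0 ≤ δ → WAUC δ Z → Rigid.{u, v} (1 + δ) (StrongDual ℝ Z)) ∧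
    (MEmb Z → LEmb 1 (StrongDual ℝ Z))

/-- Part (4): `l1`-sums of separable spaces that are reflexive, or L-embedded with the
Radon-Nikodym property. -/
def PartSum : Prop :=
  ∀ (E : ℕ → Type u) [∀ i, NormedAddCommGroup (E i)] [∀ i, NormedSpace ℝ (E i)]
    [∀ i, CompleteSpace (E i)] [∀ i, SeparableSpace (E i)],
    (∀ i, Reflex (E i) ∨ (CurveDiff (E i) ∧ LEmb 1 (E i))) →
    LEmb 1 (lp E 1) ∧ Rigid.{u, v} 2 (lp E 1) ∧
    Determined.{u, v} 2 (lp (fun n : ℕ => E (Nat.unpair n).1) 1)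

/-- Part (5): duals of spaces `Z` of compact operators on a separable Hilbert space `H`, and the
trace class in case `Z` contains all compact operators. -/
def PartCompact : Prop :=
  ∀ (H : Type u) [NormedAddCommGroup H] [InnerProductSpace ℝ H] [CompleteSpace H]
    (_b : HilbertBasis ℕ ℝ H) (Z : Type u) [NormedAddCommGroup Z] [NormedSpace ℝ Z]
    (j : Z →ₗᵢ[ℝ] (H →L[ℝ] H)), (∀ z, IsCompactOperator (j z)) →
    SeparableSpace (StrongDual ℝ Z) ∧ LEmb 1 (StrongDual ℝ Z) ∧
    Rigid.{u, v} 2 (StrongDual ℝ Z) ∧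
    Determined.{u, v} 2 (lp (fun _ : ℕ => StrongDual ℝ Z) 1) ∧
    ((∀ T : H →L[ℝ] H, IsCompactOperator T → ∃ z, j z = T) →
      Determined.{u, v} 2 (StrongDual ℝ Z))

end Vale.Agent.P124.LEmbeddedRigidity

open Vale.Agent.P124.LEmbeddedRigidity

lemma Vale.Agent.Results.P124.LEmbeddedRigidity.rigid {X : Type u} [NormedAddCommGroup X]
    [NormedSpace ℝ X] [CompleteSpace X] [SeparableSpace X] {κ θ : ℝ} (hκ : 0 ≤ κ)
    (hθ : θ * κ ≤ 1) (hX : Split κ X) (hR : CurveDiff X) : Rigid.{u, v} θ X := by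
  have key : ∀ t : ℝ, t < θ → t * κ < 1 := by
    intro t ht
    rcases eq_or_lt_of_le hκ with h | h
    · rw [← h, mul_zero]
      exact one_pos
    · exact (mul_lt_mul_of_pos_right ht h).trans_le hθ
  intro Y _ _ _
  refine ⟨?_, ?_⟩
  · rintro ⟨g, f, K', L', K, L, V, O, hg, hf, hfg, hV, hVne, hO, hVO, hgV, hfO, hKL⟩
    exact complemented_of_factor_split hκ hX hR g f K' L' K L hg hf hfg O hO V hV hVne hVO hgV hfO
      (key _ hKL)
  · rintro ⟨f, K', L', K, L, O, hf, hg, hO, hne, hfO, hgO, hKL⟩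
    exact iso_split hκ hX hR f K' L' K L O hf hg hO hne hfO hgO (key _ hKL)

lemma Vale.Agent.Results.P124.LEmbeddedRigidity.retract {X : Type u} [NormedAddCommGroup X]
    [NormedSpace ℝ X] [CompleteSpace X] [SeparableSpace X] {κ θ : ℝ} (hκ : 0 ≤ κ)
    (hθ : θ * κ ≤ 1) (hX : Split κ X) : RetractRigid θ X := by
  rintro M hM ⟨r, L', L, O, hr, hrM, hr1, hO, ⟨m₀, hm₀O, hm₀⟩, hrO, hL⟩
  refine complemented_of_retract_split hκ hX M hM r L' L hr hrM hr1 O hO m₀ hm₀ hm₀O hrO ?_
  rcases eq_or_lt_of_le hκ with h | h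
  · rw [← h, mul_zero]
    exact one_pos
  · exact (mul_lt_mul_of_pos_right hL h).trans_le hθ

theorem Vale.Agent.Results.P124.LEmbeddedRigidity.result :
    PartSplit.{u, v} ∧ PartDual.{u, v} ∧ PartSum.{u, v} ∧ PartCompact.{u, v} := by
  have hL2 : ∀ (X : Type u) [NormedAddCommGroup X] [NormedSpace ℝ X] [CompleteSpace X]
      [SeparableSpace X], LEmb 1 X → CurveDiff X → Rigid.{u, v} 2 X := by
    intro X _ _ _ _ h1 h2
    refine Vale.Agent.Results.P124.LEmbeddedRigidity.rigid (κ := 1 / (1 + 1)) (by norm_num)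
      (by norm_num) (h1.split zero_le_one) h2
  have hsum : ∀ (E : ℕ → Type u) [∀ i, NormedAddCommGroup (E i)] [∀ i, NormedSpace ℝ (E i)]
        [∀ i, CompleteSpace (E i)] [∀ i, SeparableSpace (E i)],
        (∀ i, Reflex (E i) ∨ (CurveDiff (E i) ∧ LEmb 1 (E i))) →
        LEmb 1 (lp E 1) ∧ Rigid.{u, v} 2 (lp E 1) := by
    intro E _ _ _ _ h
    have h1 : ∀ i, LEmb 1 (E i) := fun i =>
      (h i).elim (fun hi => LEmb.of_reflex hi 1) (fun hi => hi.2)
    have h2 : ∀ i, CurveDiff (E i) := fun i =>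
      (h i).elim (fun hi => CurveDiff.of_reflex hi) (fun hi => hi.1)
    have h3 : LEmb 1 (lp E 1) := LEmb.lp_one zero_le_one le_rfl h1
    have : SeparableSpace (lp E 1) := lp1_separable
    exact ⟨h3, hL2 _ h3 (curveDiff_lp_one h2)⟩
  refine ⟨?_, ?_, ?_, ?_⟩
  · intro X _ _ _ _ κ θ hκ hθ hX
    exact ⟨Vale.Agent.Results.P124.LEmbeddedRigidity.retract hκ hθ hX,
      Vale.Agent.Results.P124.LEmbeddedRigidity.rigid hκ hθ hX⟩
  · intro Z _ _ _
    refine ⟨curveDiff_dual Z, ?_, LEmb.of_MEmb⟩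
    intro δ hδ hZ
    refine Vale.Agent.Results.P124.LEmbeddedRigidity.rigid (κ := 1 / (1 + δ)) (by positivity)
      ?_ (Split.of_wauc (LinearIsometryEquiv.refl ℝ _) hδ hZ) (curveDiff_dual Z)
    rw [mul_one_div, div_self (by positivity)]
  · intro E _ _ _ _ h
    refine ⟨(hsum E h).1, (hsum E h).2, ?_⟩
    intro Y _ _ _ hY
    exact ((hsum (fun n : ℕ => E (Nat.unpair n).1) (fun n => h _)).2 Y).2 hY |>.2.2
      (lp_one_self_sum E)
  · intro H _ _ _ b Z _ _ j hj
    have hs : SeparableSpace (StrongDual ℝ Z) := separable_compact b j hj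
    have hL : LEmb 1 (StrongDual ℝ Z) := LEmb.of_MEmb (memb_compact b j hj)
    have hD : CurveDiff (StrongDual ℝ Z) := curveDiff_dual Z
    have hR : Rigid.{u, v} 2 (StrongDual ℝ Z) := hL2 _ hL hD
    refine ⟨hs, hL, hR, ?_, ?_⟩
    · intro Y _ _ _ hY
      exact ((hsum (fun _ : ℕ => StrongDual ℝ Z) (fun _ => Or.inr ⟨hD, hL⟩)).2 Y).2 hY |>.2.2
        (lp_one_self_sum_of (F := fun _ : ℕ => StrongDual ℝ Z) Nat.pairEquiv
          (fun _ _ => LinearIsometryEquiv.refl ℝ _))
    · intro hj' Y _ _ _ hY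
      exact ((hR Y).2 hY).2.2 (kop_dual_iso' b j hj hj')
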